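import Vale.Agent.P088.H129.SQ2
import Vale.Agent.P088.H442.C.Defs

/-!
# P088, Theorem C: row C_ID (`St2` implies the identity for `u = φ U`)
-/

open MeasureTheory Set
open scoped ContDiff Matrix

noncomputable section

namespace Vale.Agent.P088.LR.H955

open Vale.Agent.P088.LR Vale.Agent.P088.LR.CF Vale.Agent.P088.LR.H705
open Vale.Agent.P088.LR.H129 Vale.Agent.P088.LR.CC

variable {n : ℕ}

theorem bounded_of_bal {Ω : Set (V n)} (h : Ω ⊆ bal n) : Bornology.IsBounded Ω := by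
  refine (isCompact_Icc (a := fun _ : Fin n => (1 / 4 : ℝ)) (b := fun _ => 3 / 4)).isBounded.subset ?_
  intro x hx
  have hx' := h hx
  have key : ∀ j, 1 / 4 ≤ x j ∧ x j ≤ 3 / 4 := by
    intro j
    have h1 : (x j - 1 / 2) ^ 2 ≤ 1 / 16 :=
      (Finset.single_le_sum (f := fun j => (x j - 1 / 2) ^ 2) (fun i _ => sq_nonneg _)
        (Finset.mem_univ j)).trans hx'
    have h2 : |x j - 1 / 2| ≤ 1 / 4 := by
      refine abs_le_of_sq_le_sq ?_ (by norm_num)
      nlinarith
    rw [abs_le] at h2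
    constructor <;> linarith [h2.1, h2.2]
  exact ⟨fun j => (key j).1, fun j => (key j).2⟩

/-- **Row C_ID** -/
theorem idC : RowIDC := by
  intro n Ω φ q₀ t q hB
  have hφ : SmP φ := hB.ba.p
  have hs : SmM t := hB.sm
  have hsym := hB.sy
  have hoff := hB.off
  have hi : interior (closure Ω) = Ω := hB.reg
  have hb : Bornology.IsBounded Ω := bounded_of_bal hB.sub
  have hcφ : ContDiff ℝ ∞ (cx φ) := Complex.ofRealCLM.contDiff.comp hφ.1
  have hφn : ∀ x, cx φ x ≠ 0 := fun x => by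
    unfold cx
    exact_mod_cast (hφ.2 x).ne'
  have hinv : ContDiff ℝ ∞ (fun y => (cx φ y)⁻¹) := hcφ.inv hφn
  have h1m : SmM (fun _ : V n => (1 : Matrix (Fin n) (Fin n) ℝ)) := fun i j => contDiff_const
  have h1s : ∀ x : V n, ((fun _ : V n => (1 : Matrix (Fin n) (Fin n) ℝ)) x).IsSymm :=
    fun _ => Matrix.isSymm_one
  have hh : SmM (fun x => t x - 1) := fun i j => (hs i j).sub contDiff_const
  have hhs : ∀ x, (t x - 1).IsSymm := fun x => (hsym x).sub Matrix.isSymm_one
  have hflx0 : ∀ (u : V n → ℂ) (i : Fin n), ∀ x ∉ Ω, flx (fun x => t x - 1) u i x = 0 := by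
    intro u i x hx
    unfold flx
    refine Finset.sum_eq_zero fun j _ => ?_
    have : ((t x - 1) i j : ℝ) = 0 := by rw [hoff x hx, sub_self]; rfl
    show (((t x - 1) i j : ℝ) : ℂ) * pd j u x = 0
    rw [this, Complex.ofReal_zero, zero_mul]
  have hdvs : ∀ x, dv t (cx φ) x = dv (fun _ => 1) (cx φ) x + dv (fun x => t x - 1) (cx φ) x := by
    intro x
    show ∑ i, pd i (flx t (cx φ) i) x = ∑ i, pd i (flx (fun _ => 1) (cx φ) i) x +
      ∑ i, pd i (flx (fun x => t x - 1) (cx φ) i) x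
    rw [← Finset.sum_add_distrib]
    refine Finset.sum_congr rfl fun i _ => ?_
    have e1 : flx t (cx φ) i = fun y => flx (fun _ => 1) (cx φ) i y +
        flx (fun x => t x - 1) (cx φ) i y := by
      funext y
      unfold flx
      rw [← Finset.sum_add_distrib]
      refine Finset.sum_congr rfl fun j _ => ?_
      show (t y i j : ℂ) * pd j (cx φ) y =
        (((1 : Matrix (Fin n) (Fin n) ℝ) i j : ℝ) : ℂ) * pd j (cx φ) y +
        ((t y i j - (1 : Matrix (Fin n) (Fin n) ℝ) i j : ℝ) : ℂ) * pd j (cx φ) y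
      rw [Complex.ofReal_sub]
      ring
    rw [e1]
    unfold pd
    rw [fderiv_fun_add ((contDiff_flx h1m hcφ i).differentiable (by simp) x)
      ((contDiff_flx hh hcφ i).differentiable (by simp) x)]
    rfl
  have hq' : ∀ x, ((q x - q₀ x : ℝ) : ℂ) * cx φ x = dv (fun x => t x - 1) (cx φ) x := by
    intro x
    have e1 := hB.eq x
    have e2 := hB.ba.eq x
    have e3 := hdvs x
    rw [e1, e2] at e3
    have e4 : cx φ x = (φ x : ℂ) := rfl
    rw [e4, Complex.ofReal_sub]
    linear_combination e3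
  have hcq : ContDiff ℝ ∞ (fun x => ((q x - q₀ x : ℝ) : ℂ)) :=
    Complex.ofRealCLM.contDiff.comp (hB.sq.sub hB.ba.sq)
  intro U v hU hv hU0 hv0
  have hio : ∀ f : V n → ℂ, Continuous f → IntegrableOn f Ω := fun f hf =>
    (hf.continuousOn.integrableOn_compact hb.isCompact_closure).mono_set subset_closure
  have hW1 : ContDiff ℝ ∞ (fun y => U y * (cx φ y)⁻¹) := hU.mul hinv
  have hW2 : ContDiff ℝ ∞ (fun y => v y * (cx φ y)⁻¹) := hv.mul hinv
  have hps : sc (fun x => φ x ^ 2) =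
      fun x => (φ x) ^ 2 • (fun _ : V n => (1 : Matrix (Fin n) (Fin n) ℝ)) x := rfl
  -- the two equations
  have a1 : ∀ x ∈ Ω, dv (sc (fun x => φ x ^ 2)) (fun y => U y * (cx φ y)⁻¹) x = 0 := by
    intro x hx
    rw [hps, dv_sq_div h1m h1s hφ hU, hU0 x hx, hB.ba.eq x]
    show cx φ x * ((q₀ x : ℂ) * U x) - U x * ((q₀ x : ℂ) * (φ x : ℂ)) = 0
    have e4 : cx φ x = (φ x : ℂ) := rfl
    rw [e4]
    ring
  have a2 : ∀ x ∈ Ω, dv (fun x => (φ x) ^ 2 • t x) (fun y => v y * (cx φ y)⁻¹) x = 0 := by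
    intro x hx
    rw [dv_sq_div hs hsym hφ hv, hv0 x hx, hB.eq x]
    have e4 : cx φ x = (φ x : ℂ) := rfl
    rw [e4]
    ring
  have h0 := hB.st _ _ hW1 hW2 a1 a2
  have hd : (fun x => (φ x) ^ 2 • t x - sc (fun x => φ x ^ 2) x) =
      fun x => (φ x) ^ 2 • (t x - 1) := by
    funext x
    rw [hps, smul_sub]
  rw [hd, bl_eq] at h0
  -- the divergence term
  have hUW : ContDiff ℝ ∞ (fun y => U y * (v y * (cx φ y)⁻¹)) := hU.mul hW2
  have hG : ∀ i, ContDiff ℝ ∞ (fun y => (U y * (v y * (cx φ y)⁻¹)) *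
      flx (fun x => t x - 1) (cx φ) i y) := fun i => hUW.mul (contDiff_flx hh hcφ i)
  have hG0 : ∀ i, ∀ x ∉ Ω, (U x * (v x * (cx φ x)⁻¹)) *
      flx (fun x => t x - 1) (cx φ) i x = 0 := by
    intro i x hx
    rw [hflx0 (cx φ) i x hx, mul_zero]
  have h5 : ∫ x in Ω, (B (fun x => t x - 1) (fun y => U y * (v y * (cx φ y)⁻¹)) (cx φ) x +
      (U x * (v x * (cx φ x)⁻¹)) * dv (fun x => t x - 1) (cx φ) x) = 0 := by
    have h6 : ∫ x, ∑ i, pd i (fun y => (U y * (v y * (cx φ y)⁻¹)) *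
        flx (fun x => t x - 1) (cx φ) i y) x = 0 := by
      rw [integral_finsetSum _ fun i _ => (H158.integral_pd_zero hb (hG i) (hG0 i) i).1]
      exact Finset.sum_eq_zero fun i _ => (H158.integral_pd_zero hb (hG i) (hG0 i) i).2
    have h7 : ∫ x in Ω, ∑ i, pd i (fun y => (U y * (v y * (cx φ y)⁻¹)) *
        flx (fun x => t x - 1) (cx φ) i y) x =
        ∫ x, ∑ i, pd i (fun y => (U y * (v y * (cx φ y)⁻¹)) *
        flx (fun x => t x - 1) (cx φ) i y) x := by
      apply setIntegral_eq_integral_of_forall_compl_eq_zero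
      intro x hx
      refine Finset.sum_eq_zero fun i _ => ?_
      unfold pd
      rw [H158.fderiv_zero_off hi (hG i) (hG0 i) hx]
      rfl
    rw [h6] at h7
    rw [← h7]
    refine integral_congr_ae (Filter.Eventually.of_forall fun x => ?_)
    exact (div_mul hh hUW hcφ x).symm
  -- the pointwise identity
  have hpt : ∀ x, B (fun x => t x - 1) U v x + ((q x - q₀ x : ℝ) : ℂ) * U x * v x =
      B (fun x => (φ x) ^ 2 • (t x - 1)) (fun y => U y * (cx φ y)⁻¹)
        (fun y => v y * (cx φ y)⁻¹) x +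
      (B (fun x => t x - 1) (fun y => U y * (v y * (cx φ y)⁻¹)) (cx φ) x +
      (U x * (v x * (cx φ x)⁻¹)) * dv (fun x => t x - 1) (cx φ) x) := by
    intro x
    have eU : U = fun y => cx φ y * (U y * (cx φ y)⁻¹) := by
      funext y
      have := hφn y
      field_simp
    have ev : v = fun y => cx φ y * (v y * (cx φ y)⁻¹) := by
      funext y
      have := hφn y
      field_simp
    have b1 : B (fun x => t x - 1) U v x =
        cx φ x * (cx φ x * B (fun x => t x - 1) (fun y => U y * (cx φ y)⁻¹)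
          (fun y => v y * (cx φ y)⁻¹) x + (v x * (cx φ x)⁻¹) *
          B (fun x => t x - 1) (fun y => U y * (cx φ y)⁻¹) (cx φ) x) +
        (U x * (cx φ x)⁻¹) * (cx φ x * B (fun x => t x - 1) (cx φ)
          (fun y => v y * (cx φ y)⁻¹) x + (v x * (cx φ x)⁻¹) *
          B (fun x => t x - 1) (cx φ) (cx φ) x) := by
      conv_lhs => rw [eU, ev]
      rw [B_mul_left _ hcφ hW1, B_mul_right _ hcφ hW2, B_mul_right _ hcφ hW2]
    have b2 : B (fun x => t x - 1) (fun y => U y * (v y * (cx φ y)⁻¹)) (cx φ) x =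
        U x * B (fun x => t x - 1) (fun y => v y * (cx φ y)⁻¹) (cx φ) x +
        (v x * (cx φ x)⁻¹) * (cx φ x * B (fun x => t x - 1)
          (fun y => U y * (cx φ y)⁻¹) (cx φ) x + (U x * (cx φ x)⁻¹) *
          B (fun x => t x - 1) (cx φ) (cx φ) x) := by
      rw [B_mul_left _ hU hW2]
      have b3 : B (fun x => t x - 1) U (cx φ) x =
          cx φ x * B (fun x => t x - 1) (fun y => U y * (cx φ y)⁻¹) (cx φ) x +
          (U x * (cx φ x)⁻¹) * B (fun x => t x - 1) (cx φ) (cx φ) x := by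
        conv_lhs => rw [eU]
        rw [B_mul_left _ hcφ hW1]
      rw [b3]
    rw [b1, b2, B_sq, ← hq' x, B_symm hhs (cx φ) (fun y => v y * (cx φ y)⁻¹)]
    have h0 := hφn x
    field_simp
    ring
  have k1 : IntegrableOn (B (fun x => t x - 1) U v) Ω := hio _ (continuous_B hh hU hv)
  have k2 : IntegrableOn (fun x => ((q x - q₀ x : ℝ) : ℂ) * U x * v x) Ω :=
    hio _ ((hcq.continuous.mul hU.continuous).mul hv.continuous)
  have hh2 : SmM (fun x => (φ x) ^ 2 • (t x - 1)) := fun i j => by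
    simp only [Matrix.smul_apply, smul_eq_mul]
    exact (hφ.1.pow 2).mul (hh i j)
  have k3 : IntegrableOn (B (fun x => (φ x) ^ 2 • (t x - 1)) (fun y => U y * (cx φ y)⁻¹)
        (fun y => v y * (cx φ y)⁻¹)) Ω := hio _ (continuous_B hh2 hW1 hW2)
  have k4 : IntegrableOn (fun x => B (fun x => t x - 1) (fun y => U y * (v y * (cx φ y)⁻¹))
      (cx φ) x + (U x * (v x * (cx φ x)⁻¹)) * dv (fun x => t x - 1) (cx φ) x) Ω :=
    hio _ ((continuous_B hh hUW hcφ).add
      (hUW.continuous.mul (contDiff_dvF hh hcφ).continuous))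
  rw [bl_eq, ← integral_add k1 k2, integral_congr_ae (Filter.Eventually.of_forall hpt),
    integral_add k3 k4, h0, h5, add_zero]

end Vale.Agent.P088.LR.H955
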